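import Vale.Agent.P080.Final

namespace Vale.Agent.Results.P080.C1alpha

open Metric

/-- The (unnormalized) infinity Laplacian `⟨D²φ(z) ∇φ(z), ∇φ(z)⟩`. -/
noncomputable def infLaplacian {d : ℕ} (φ : EuclideanSpace ℝ (Fin d) → ℝ)
    (z : EuclideanSpace ℝ (Fin d)) : ℝ :=
  fderiv ℝ (fderiv ℝ φ) z (gradient φ z) (gradient φ z)

/-- `u` is continuous on `Ω` and a viscosity solution of the infinity Laplace equation there. -/
def InfHarmonicOn {d : ℕ} (u : EuclideanSpace ℝ (Fin d) → ℝ)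
    (Ω : Set (EuclideanSpace ℝ (Fin d))) : Prop :=
  ContinuousOn u Ω ∧
    ∀ φ : EuclideanSpace ℝ (Fin d) → ℝ, ContDiff ℝ 2 φ → ∀ z ∈ Ω,
      (IsLocalMax (fun x => u x - φ x) z → 0 ≤ infLaplacian φ z) ∧
      (IsLocalMin (fun x => u x - φ x) z → infLaplacian φ z ≤ 0)

theorem result : ∃ α C : ℝ, 0 < α ∧
    ∀ (d : ℕ) (Ω : Set (EuclideanSpace ℝ (Fin d))) (u : EuclideanSpace ℝ (Fin d) → ℝ),
      IsOpen Ω → InfHarmonicOn u Ω →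
      ContDiffOn ℝ 1 u Ω ∧
      ∀ (x₀ : EuclideanSpace ℝ (Fin d)) (r K : ℝ), 0 < r → ball x₀ r ⊆ Ω →
        (∀ x ∈ ball x₀ r, ∀ y ∈ ball x₀ r, u x - u y ≤ K) →
        ∀ x ∈ ball x₀ (r / 2), ‖gradient u x‖ ≤ C * K / r ∧
          ∀ y ∈ ball x₀ (r / 2),
            ‖gradient u x - gradient u y‖ ≤ C * K / r * (‖x - y‖ / r) ^ α := by
  obtain ⟨α, C, hα, H⟩ := Vale.Agent.P080.main_thm
  exact ⟨α, C, hα, fun d Ω u hΩ hu => H _ Ω u hΩ hu.1 hu.2⟩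

end Vale.Agent.Results.P080.C1alpha
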